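import Vale.Agent.P088.Stmt

/-!
# P088: flat connections are determined among all smooth unitary connections by the data on an
arbitrary boundary patch
-/

open Metric P088
open scoped ContDiff

namespace Vale.Agent.Results.P088.FlatConnections

/-- `M` is the closed unit ball of `ℝⁿ`, `g` any smooth metric on `M`, `A₁ = V⁻¹ dV` a flat smooth
unitary connection on `M × ℂᴺ`, `A₂` any smooth unitary connection, `Γ = O ∩ ∂M` any nonempty
relatively open patch.  If `(g, A₁)` and `(g, A₂)` have the same data on `Γ`, then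
`A₂ = U⁻¹ A₁ U + U⁻¹ dU` with `U : M → U(N)` smooth and `U = I` on `Γ`. -/
theorem result {n N : ℕ} (g : En n → Matrix (Fin n) (Fin n) ℝ) (hg : IsMetric g)
    (A₁ A₂ : En n → Fin n → Op N) (hA₂ : IsUConn A₂)
    (V : En n → Op N) (hV : IsUMap V) (hA₁ : ∀ x ∈ intM n, ∀ i, A₁ x i = pureG V i x)
    (O : Set (En n)) (hO : IsOpen O) (hne : (O ∩ bdM n).Nonempty)
    (h : SameData (O ∩ bdM n) g A₁ g A₂) :
    ∃ U : En n → Op N, IsUMap U ∧ (∀ x ∈ O ∩ bdM n, IsId (U x)) ∧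
      ∀ x ∈ intM n, ∀ i, A₂ x i = gaugeT A₁ U i x := by
  obtain ⟨U, h1, h2, h3, h4⟩ :=
    flat_rigidity g hg.1 hg.2 A₁ A₂ hA₂.1 hA₂.2 V hV.1 hV.2 hA₁ hO hne h
  exact ⟨U, ⟨h1, h2⟩, h3, h4⟩

end Vale.Agent.Results.P088.FlatConnections
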